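import Vale.Agent.P121.Main

open MeasureTheory Vale.Agent.P121
open scoped ENNReal

/-- There is an absolutely continuous probability measure on `ℝ³` with finite three-marginal
Coulomb Kantorovich value for which every Monge plan costs strictly more than that value. -/
theorem Vale.Agent.Results.P121.NoMonge.result :
    ∃ μ : Measure R3, IsProbabilityMeasure μ ∧ μ ≪ volume ∧ kantorovich μ < ∞ ∧
      ∀ T₂ T₃ : R3 → R3, Measurable T₂ → Measurable T₃ → μ.map T₂ = μ → μ.map T₃ = μ →
        kantorovich μ < ∫⁻ x, coulomb x (T₂ x) (T₃ x) ∂μ :=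
  Vale.Agent.P121.main
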